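import Vale.Agent.P245.H300.StaticA
import Vale.Agent.P245.H652.Top

/-! # P245: Bizeul's conjecture -/

open MeasureTheory Real
open scoped ContDiff

namespace Vale.Agent.Results.P245.BizeulConjecture

open Vale.Agent.P245

theorem result : ∃ C : ℝ, 0 < C ∧ ∀ (n : ℕ), 1 ≤ n →
    ∀ (μ : Measure (EuclideanSpace ℝ (Fin n))) [IsProbabilityMeasure μ],
    HasLogConcaveDensity μ → ∀ a : ℝ, 0 < a → LinearlySubgaussian μ a →
    ∀ f : EuclideanSpace ℝ (Fin n) → ℝ, ContDiff ℝ ∞ f → HasCompactSupport f →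
    Entropy μ (fun x => f x ^ 2) ≤ C * a ^ 2 * ∫ x, ‖gradient f x‖ ^ 2 ∂μ :=
  H652.literal_of_Core H300.core

end Vale.Agent.Results.P245.BizeulConjecture
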